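/-
P235-M, reduction, row C (helper271), part A: exactness (`H¹ = 0`) for plane maps by a dimension
count.
-/
import Vale.Agent.P235.R2.RED.Stmts

namespace Vale.Agent.P235.R2.H271

open Red

open scoped Classical in
/-- a cochain on the up-darts -/
theorem ker_const {ι : Type} [Fintype ι] [Nonempty ι] {κ : Type} [Fintype κ]
    (M : Matrix κ ι ℝ) (h1 : ∀ k, ∑ i, M k i = 0)
    (h2 : ∀ x : ι → ℝ, M.mulVec x = 0 → ∀ i j, x i = x j) :
    M.rank + 1 = Fintype.card ι := by
  have hker : LinearMap.ker M.mulVecLin = Submodule.span ℝ {(fun _ => 1 : ι → ℝ)} := by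
    ext x
    rw [LinearMap.mem_ker, Matrix.mulVecLin_apply, Submodule.mem_span_singleton]
    constructor
    · intro hx
      obtain ⟨i0⟩ := ‹Nonempty ι›
      refine ⟨x i0, ?_⟩
      ext i
      simp [h2 x hx i0 i]
    · rintro ⟨a, rfl⟩
      ext k
      simp only [Matrix.mulVec, dotProduct, Pi.smul_apply, smul_eq_mul, mul_one, Pi.zero_apply]
      rw [← Finset.sum_mul, h1, zero_mul]
  have hne : (fun _ => 1 : ι → ℝ) ≠ 0 := by
    obtain ⟨i0⟩ := ‹Nonempty ι›
    intro h
    exact one_ne_zero (congrFun h i0)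
  have h3 := LinearMap.finrank_range_add_finrank_ker M.mulVecLin
  rw [hker, finrank_span_singleton hne, Module.finrank_fintype_fun_eq_card] at h3
  exact h3

/-- exactness from ranks -/
theorem exact_of_rank {ι κ υ : Type} [Fintype ι] [Fintype κ] [Fintype υ] [Nonempty ι] [Nonempty κ]
    (A : Matrix υ ι ℝ) (B : Matrix κ υ ℝ) (hBA : B * A = 0)
    (hA1 : ∀ k, ∑ i, A k i = 0) (hA2 : ∀ x : ι → ℝ, A.mulVec x = 0 → ∀ i j, x i = x j)
    (hB1 : ∀ k, ∑ i, B i k = 0)
    (hB2 : ∀ x : κ → ℝ, B.transpose.mulVec x = 0 → ∀ i j, x i = x j)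
    (hcard : Fintype.card ι + Fintype.card κ = Fintype.card υ + 2)
    (c : υ → ℝ) (hc : B.mulVec c = 0) : ∃ g : ι → ℝ, A.mulVec g = c := by
  have h1 := ker_const A hA1 hA2
  have h2 := ker_const B.transpose (fun k => by simpa using hB1 k) hB2
  rw [Matrix.rank_transpose] at h2
  have h3 := LinearMap.finrank_range_add_finrank_ker B.mulVecLin
  rw [Module.finrank_fintype_fun_eq_card] at h3
  have hle : LinearMap.range A.mulVecLin ≤ LinearMap.ker B.mulVecLin := by
    rintro _ ⟨x, rfl⟩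
    rw [LinearMap.mem_ker, Matrix.mulVecLin_apply, Matrix.mulVecLin_apply, Matrix.mulVec_mulVec,
      hBA, Matrix.zero_mulVec]
  have heq : LinearMap.range A.mulVecLin = LinearMap.ker B.mulVecLin := by
    refine Submodule.eq_of_le_of_finrank_eq hle ?_
    have h4 : Module.finrank ℝ (LinearMap.range A.mulVecLin) = A.rank := rfl
    have h5 : Module.finrank ℝ (LinearMap.range B.mulVecLin) = B.rank := rfl
    omega
  have hmem : c ∈ LinearMap.ker B.mulVecLin := by
    rw [LinearMap.mem_ker, Matrix.mulVecLin_apply]; exact hc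
  rw [← heq] at hmem
  obtain ⟨g, hg⟩ := hmem
  exact ⟨g, hg⟩

end Vale.Agent.P235.R2.H271
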