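/-
P235-M, reduction, row C (helper271), part B: exactness for plane maps.
-/
import Vale.Agent.P235.R2.H271.CA

namespace Vale.Agent.P235.R2.H271

open Red

/-- faces -/
abbrev Fc {V : Type} {G : SimpleGraph V} (σ : Equiv.Perm G.Dart) : Type :=
  Quotient (Equiv.Perm.SameCycle.setoid (faceNext σ))

/-- the face of a dart -/
def phi {V : Type} {G : SimpleGraph V} (σ : Equiv.Perm G.Dart) (d : G.Dart) : Fc σ :=
  Quotient.mk _ d

/-- up-darts -/
def Up {V : Type} {G : SimpleGraph V} (h : V → ℝ) (d : G.Dart) : Prop := h d.fst < h d.snd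

variable {V : Type} {G : SimpleGraph V} {σ : Equiv.Perm G.Dart} {h : V → ℝ} {s t : V}

theorem phi_eq {d e : G.Dart} : phi σ d = phi σ e ↔ (faceNext σ).SameCycle d e :=
  ⟨fun h => Quotient.exact h, fun h => Quotient.sound h⟩

theorem faceNext_symm (d : G.Dart) : faceNext σ d.symm = σ d := by
  simp [faceNext]

theorem phi_next (d : G.Dart) : phi σ (faceNext σ d) = phi σ d := by
  rw [phi_eq]
  exact (Equiv.Perm.sameCycle_apply_left).2 (Equiv.Perm.SameCycle.refl _ _)

theorem phi_symm (d : G.Dart) : phi σ d.symm = phi σ (σ d) := by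
  rw [← phi_next d.symm, faceNext_symm]

theorem next_fst (hP : PlaneMap G σ) (d : G.Dart) : (faceNext σ d).fst = d.snd := by
  have h1 : faceNext σ d = σ d.symm := by simp [faceNext]
  rw [h1, hP.fst]
  rfl

theorem up_or (hU : UpDown G h s t) (d : G.Dart) : Up h d ∨ Up h d.symm := by
  rcases lt_or_gt_of_ne (hU.ne _ _ d.adj) with h1 | h1
  · exact Or.inl h1
  · exact Or.inr h1

theorem not_up_symm {d : G.Dart} (hd : Up h d) : ¬ Up h d.symm := by
  intro h1
  exact lt_asymm (show h d.fst < h d.snd from hd) h1

theorem up_symm_iff (hU : UpDown G h s t) (d : G.Dart) : Up h d.symm ↔ ¬ Up h d := by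
  constructor
  · intro h1 h2
    exact not_up_symm h2 h1
  · intro h1
    rcases up_or hU d with h2 | h2
    · exact absurd h2 h1
    · exact h2

open scoped Classical in
theorem sum_darts [Fintype G.Dart] (hU : UpDown G h s t) (f : G.Dart → ℝ) :
    ∑ d, f d = ∑ d : {d : G.Dart // Up h d}, (f d.1 + f d.1.symm) := by
  rw [Finset.sum_add_distrib]
  have h1 : ∑ d : {d : G.Dart // Up h d}, f d.1 = ∑ d, if Up h d then f d else 0 := by
    rw [← Finset.sum_filter]
    exact (Finset.sum_subtype (Finset.univ.filter (fun d => Up h d)) (fun d => by simp) f).symm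
  have h2 : ∑ d : {d : G.Dart // Up h d}, f d.1.symm = ∑ d, if Up h d then f d.symm else 0 := by
    rw [← Finset.sum_filter]
    exact (Finset.sum_subtype (Finset.univ.filter (fun d => Up h d)) (fun d => by simp)
      (fun d => f d.symm)).symm
  have h3 : ∑ d, (if Up h d then f d.symm else 0) = ∑ d, if Up h d.symm then f d else 0 := by
    refine Fintype.sum_equiv (SimpleGraph.Dart.symm_involutive.toPerm _) _ _ ?_
    intro d
    simp [Function.Involutive.coe_toPerm]
  rw [h1, h2, h3, ← Finset.sum_add_distrib]
  refine Finset.sum_congr rfl fun d _ => ?_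
  by_cases hd : Up h d
  · simp [hd, not_up_symm hd]
  · simp [hd, (up_symm_iff hU d).2 hd]

theorem card_up [Finite V] (hU : UpDown G h s t) :
    Nat.card {d : G.Dart // Up h d} = Nat.card G.edgeSet := by
  refine Nat.card_congr (Equiv.ofBijective (fun d => ⟨d.1.edge, d.1.edge_mem⟩) ⟨?_, ?_⟩)
  · rintro ⟨d, hd⟩ ⟨e, he⟩ hde
    simp only [Subtype.mk.injEq] at hde ⊢
    rcases (SimpleGraph.dart_edge_eq_iff d e).1 hde with h1 | h1
    · exact h1
    · subst h1
      exact absurd hd (not_up_symm he)
  · rintro ⟨e, he⟩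
    induction e with
    | h u v =>
      have hadj : G.Adj u v := by simpa using he
      rcases lt_or_gt_of_ne (hU.ne _ _ hadj) with h1 | h1
      · exact ⟨⟨⟨(u, v), hadj⟩, h1⟩, rfl⟩
      · exact ⟨⟨⟨(v, u), hadj.symm⟩, h1⟩, Subtype.ext (Sym2.eq_swap)⟩

/-- a function which is equal at adjacent vertices is constant -/
theorem const_of_adj (hG : G.Connected) {α : Type} (x : V → α) (hx : ∀ u v, G.Adj u v → x u = x v)
    (u v : V) : x u = x v := by
  obtain ⟨w⟩ := hG.preconnected u v
  induction w with
  | nil => rfl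
  | cons h _ ih => exact (hx _ _ h).trans ih

/-- a function of the darts invariant under `σ` and `symm` is constant -/
theorem const_dart (hG : G.Connected) (hP : PlaneMap G σ) {α : Type} (x : G.Dart → α)
    (h1 : ∀ d, x (σ d) = x d) (h2 : ∀ d, x d.symm = x d) (d e : G.Dart) : x d = x e := by
  have hz : ∀ (n : ℤ) (d : G.Dart), x ((σ ^ n) d) = x d := by
    intro n
    induction n using Int.induction_on with
    | zero => intro d; rfl
    | succ n ih =>
      intro d
      rw [add_comm, zpow_add, Equiv.Perm.mul_apply, zpow_one, h1, ih]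
    | pred n ih =>
      intro d
      have h3 := h1 ((σ ^ (-(n : ℤ) - 1)) d)
      rw [← Equiv.Perm.mul_apply, ← zpow_one_add] at h3
      rw [← h3, ← ih d]
      congr 3
      ring
  have hv : ∀ d e : G.Dart, d.fst = e.fst → x d = x e := by
    intro d e hde
    obtain ⟨n, hn⟩ := hP.cyc d e hde
    rw [← hn, hz]
  obtain ⟨w⟩ := hG.preconnected d.fst e.fst
  have key : ∀ (a b : V) (w : G.Walk a b) (d e : G.Dart), d.fst = a → e.fst = b → x d = x e := by
    intro a b w
    induction w with
    | nil => intro d e hd he; exact hv _ _ (hd.trans he.symm)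
    | @cons a b c hab w ih =>
      intro d e hd he
      have h3 : x d = x ⟨(a, b), hab⟩ := hv _ _ hd
      have h4 : x (⟨(a, b), hab⟩ : G.Dart) = x (⟨(b, a), hab.symm⟩ : G.Dart) := (h2 ⟨(a, b), hab⟩).symm
      rw [h3, h4]
      exact ih _ _ rfl he
  exact key _ _ w d e rfl rfl

open scoped Classical in
/-- `H¹ = 0` -/
theorem exact_plane [Fintype V] [Fintype G.Dart] [Fintype (Fc σ)] [Nonempty G.Dart]
    (hG : G.Connected) (hP : PlaneMap G σ) (hU : UpDown G h s t)
    (c : {d : G.Dart // Up h d} → ℝ)
    (hc : ∀ q : Fc σ, ∑ d, ((if phi σ d.1 = q then (1 : ℝ) else 0) -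
      (if phi σ d.1.symm = q then 1 else 0)) * c d = 0) :
    ∃ g : V → ℝ, ∀ d, g d.1.snd - g d.1.fst = c d := by
  have hnV : Nonempty V := ⟨s⟩
  have hnF : Nonempty (Fc σ) := by
    obtain ⟨d⟩ := ‹Nonempty G.Dart›
    exact ⟨phi σ d⟩
  let A : Matrix {d : G.Dart // Up h d} V ℝ := fun d v =>
    (if d.1.snd = v then (1 : ℝ) else 0) - (if d.1.fst = v then 1 else 0)
  let B : Matrix (Fc σ) {d : G.Dart // Up h d} ℝ := fun q d =>
    (if phi σ d.1 = q then (1 : ℝ) else 0) - (if phi σ d.1.symm = q then 1 else 0)
  have hA : ∀ (x : V → ℝ) d, A.mulVec x d = x d.1.snd - x d.1.fst := by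
    intro x d
    simp only [A, Matrix.mulVec, dotProduct, sub_mul, ite_mul, one_mul, zero_mul,
      Finset.sum_sub_distrib, Finset.sum_ite_eq, Finset.mem_univ, if_true]
  have hB : ∀ (x : Fc σ → ℝ) d, B.transpose.mulVec x d = x (phi σ d.1) - x (phi σ d.1.symm) := by
    intro x d
    simp only [B, Matrix.mulVec, Matrix.transpose, Matrix.of_apply, dotProduct, sub_mul, ite_mul,
      one_mul, zero_mul, Finset.sum_sub_distrib, Finset.sum_ite_eq, Finset.mem_univ, if_true]
  have hBA : B * A = 0 := by
    ext q v
    rw [Matrix.mul_apply, Matrix.zero_apply]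
    have h1 := sum_darts hU (fun d => (if phi σ d = q then (1 : ℝ) else 0) *
      ((if d.snd = v then (1 : ℝ) else 0) - (if d.fst = v then 1 else 0)))
    have h2 : ∑ d : G.Dart, (if phi σ d = q then (1 : ℝ) else 0) *
      ((if d.snd = v then (1 : ℝ) else 0) - (if d.fst = v then 1 else 0)) = 0 := by
      simp only [mul_sub, Finset.sum_sub_distrib]
      rw [sub_eq_zero]
      refine Fintype.sum_equiv (faceNext σ) _ _ ?_
      intro d
      rw [phi_next, next_fst hP]
    rw [h2] at h1
    rw [h1]
    refine Finset.sum_congr rfl fun d _ => ?_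
    have h3 : d.1.symm.snd = d.1.fst := rfl
    have h4 : d.1.symm.fst = d.1.snd := rfl
    simp only [A, B, h3, h4]
    ring
  obtain ⟨g, hg⟩ := exact_of_rank A B hBA
    (fun d => by
      have := hA (fun _ => 1) d
      simpa [Matrix.mulVec, dotProduct] using this)
    (fun x hx u v => const_of_adj hG x (fun u v huv => by
      rcases lt_or_gt_of_ne (hU.ne _ _ huv) with h1 | h1
      · have h2 := congrFun hx ⟨⟨(u, v), huv⟩, h1⟩
        rw [hA] at h2
        simp only [Pi.zero_apply] at h2
        linarith
      · have h2 := congrFun hx ⟨⟨(v, u), huv.symm⟩, h1⟩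
        rw [hA] at h2
        simp only [Pi.zero_apply] at h2
        linarith) u v)
    (fun d => by
      have := hB (fun _ => 1) d
      simpa [Matrix.mulVec, dotProduct, Matrix.transpose] using this)
    (fun x hx p q => by
      have h0 : ∀ d : G.Dart, x (phi σ d.symm) = x (phi σ d) := by
        intro d
        rcases up_or hU d with h1 | h1
        · have h2 := congrFun hx ⟨d, h1⟩
          rw [hB] at h2
          simp only [Pi.zero_apply] at h2
          linarith
        · have h2 := congrFun hx ⟨d.symm, h1⟩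
          rw [hB] at h2
          simp only [Pi.zero_apply, SimpleGraph.Dart.symm_symm] at h2
          linarith
      induction p using Quotient.inductionOn with
      | h d =>
        induction q using Quotient.inductionOn with
        | h e =>
          exact const_dart hG hP (fun d => x (phi σ d))
            (fun d => by
              show x (phi σ (σ d)) = x (phi σ d)
              rw [← phi_symm, h0]) h0 d e)
    (by
      have h1 := hP.euler
      have h2 := card_up hU
      have e1 : Nat.card V = Fintype.card V := Nat.card_eq_fintype_card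
      have e2 : Nat.card (Fc σ) = Fintype.card (Fc σ) := Nat.card_eq_fintype_card
      have e3 : Nat.card {d : G.Dart // Up h d} = Fintype.card {d : G.Dart // Up h d} :=
        Nat.card_eq_fintype_card
      rw [← e1, ← e2, ← e3, h2]
      exact h1)
    c (by
      ext q
      simpa [B, Matrix.mulVec, dotProduct] using hc q)
  refine ⟨g, fun d => ?_⟩
  rw [← hA, hg]

end Vale.Agent.P235.R2.H271
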