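/-
P235-M, reduction, row C (helper271), part C: the faces of a plane map other than the outer one are
topologically ordered from left to right.
-/
import Vale.Agent.P235.R2.H271.CB

namespace Vale.Agent.P235.R2.H271

open Red

variable {V : Type} {G : SimpleGraph V} {σ : Equiv.Perm G.Dart} {h : V → ℝ} {s t : V}

theorem wf_h [Finite V] (h : V → ℝ) : WellFounded (fun u v : V => h u < h v) := by
  have i1 : IsTrans V (fun u v : V => h u < h v) := ⟨fun _ _ _ => lt_trans⟩
  have i2 : Std.Irrefl (fun u v : V => h u < h v) := ⟨fun _ => lt_irrefl _⟩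
  exact Finite.wellFounded_of_trans_of_irrefl _

theorem wf_h' [Finite V] (h : V → ℝ) : WellFounded (fun u v : V => h v < h u) := by
  have i1 : IsTrans V (fun u v : V => h v < h u) := ⟨fun _ _ _ h1 h2 => lt_trans h2 h1⟩
  have i2 : Std.Irrefl (fun u v : V => h v < h u) := ⟨fun _ => lt_irrefl _⟩
  exact Finite.wellFounded_of_trans_of_irrefl _

/-- induction upwards from the bottom -/
theorem ind_low [Finite V] (hU : UpDown G h s t) {P : V → Prop} (hs : P s)
    (hstep : ∀ v u, G.Adj v u → h u < h v → P u → P v) (v : V) : P v := by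
  induction v using (wf_h h).induction with
  | _ v ih =>
    by_cases hv : v = s
    · rw [hv]; exact hs
    · obtain ⟨u, hu, hl⟩ := hU.low v hv
      exact hstep v u hu hl (ih u hl)

/-- induction downwards from the top -/
theorem ind_high [Finite V] (hU : UpDown G h s t) {P : V → Prop} (ht : P t)
    (hstep : ∀ v u, G.Adj v u → h v < h u → P u → P v) (v : V) : P v := by
  induction v using (wf_h' h).induction with
  | _ v ih =>
    by_cases hv : v = t
    · rw [hv]; exact ht
    · obtain ⟨u, hu, hl⟩ := hU.high v hv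
      exact hstep v u hu hl (ih u hl)

/-- the relation `f` is directly to the left of `g`, both different from `f₀` -/
def Lf (σ : Equiv.Perm G.Dart) (h : V → ℝ) (f₀ f g : Fc σ) : Prop :=
  f ≠ f₀ ∧ g ≠ f₀ ∧ ∃ d, Up h d ∧ phi σ d.symm = f ∧ phi σ d = g

open scoped Classical in
theorem chain_of_lf [Fintype G.Dart] {f₀ f g : Fc σ} (hfg : Relation.TransGen (Lf σ h f₀) f g) :
    ∃ c : {d : G.Dart // Up h d} → ℝ, (∀ d, 0 ≤ c d) ∧ (∃ d, 0 < c d) ∧
      (∀ d, c d ≠ 0 → phi σ d.1 ≠ f₀ ∧ phi σ d.1.symm ≠ f₀) ∧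
      ∀ q : Fc σ, ∑ d, ((if phi σ d.1 = q then (1 : ℝ) else 0) -
        (if phi σ d.1.symm = q then 1 else 0)) * c d =
        (if g = q then (1 : ℝ) else 0) - (if f = q then 1 else 0) := by
  have single : ∀ a b, Lf σ h f₀ a b → ∃ c : {d : G.Dart // Up h d} → ℝ, (∀ d, 0 ≤ c d) ∧
      (∃ d, 0 < c d) ∧ (∀ d, c d ≠ 0 → phi σ d.1 ≠ f₀ ∧ phi σ d.1.symm ≠ f₀) ∧
      ∀ q : Fc σ, ∑ d, ((if phi σ d.1 = q then (1 : ℝ) else 0) -
        (if phi σ d.1.symm = q then 1 else 0)) * c d =
        (if b = q then (1 : ℝ) else 0) - (if a = q then 1 else 0) := by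
    rintro a b ⟨ha, hb, d, hd, rfl, rfl⟩
    refine ⟨fun e => if e = ⟨d, hd⟩ then 1 else 0, fun e => ?_, ⟨⟨d, hd⟩, by simp⟩, ?_, ?_⟩
    · show (0 : ℝ) ≤ if e = ⟨d, hd⟩ then 1 else 0
      split_ifs <;> norm_num
    · intro e he
      have h1 : e = ⟨d, hd⟩ := by
        by_contra hne
        exact he (if_neg hne)
      subst h1
      exact ⟨hb, ha⟩
    · intro q
      simp [mul_ite]
  induction hfg with
  | single hab => exact single _ _ hab
  | @tail b e _ hbe ih =>
    obtain ⟨c, hc1, hc2, hc3, hc4⟩ := ih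
    obtain ⟨c', hc1', hc2', hc3', hc4'⟩ := single _ _ hbe
    refine ⟨fun d => c d + c' d, fun d => add_nonneg (hc1 d) (hc1' d), ?_, ?_, ?_⟩
    · obtain ⟨d, hd⟩ := hc2
      exact ⟨d, add_pos_of_pos_of_nonneg hd (hc1' d)⟩
    · intro d hd
      by_cases h1 : c d = 0
      · refine hc3' d fun h2 => hd ?_
        show c d + c' d = 0
        rw [h1, h2, add_zero]
      · exact hc3 d h1
    · intro q
      simp only [mul_add, Finset.sum_add_distrib]
      rw [hc4, hc4']
      ring

/-- the value of a function which does not change along `f₀` -/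
theorem const_face (hP : PlaneMap G σ) {α : Type} (g : V → α) {f₀ : Fc σ}
    (hg : ∀ d : G.Dart, phi σ d = f₀ → g d.fst = g d.snd) {d e : G.Dart} (hd : phi σ d = f₀)
    (he : phi σ e = f₀) : g d.fst = g e.fst := by
  obtain ⟨n, hn⟩ := phi_eq.1 (hd.trans he.symm)
  have hz : ∀ (n : ℤ) (d : G.Dart), phi σ (((faceNext σ) ^ n) d) = phi σ d := by
    intro n d
    rw [phi_eq]
    exact Equiv.Perm.sameCycle_zpow_left.2 (Equiv.Perm.SameCycle.refl _ _)
  have key : ∀ (n : ℤ) (d : G.Dart), phi σ d = f₀ →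
      g (((faceNext σ) ^ n) d).fst = g d.fst := by
    intro n
    induction n using Int.induction_on with
    | zero => intro d _; rfl
    | succ n ih =>
      intro d hd
      have h1 : phi σ (((faceNext σ) ^ (n : ℤ)) d) = f₀ := (hz _ _).trans hd
      rw [add_comm, zpow_add, Equiv.Perm.mul_apply, zpow_one, next_fst hP, ← hg _ h1, ih d hd]
    | pred n ih =>
      intro d hd
      have h1 : phi σ (((faceNext σ) ^ (-(n : ℤ) - 1)) d) = f₀ := (hz _ _).trans hd
      have h3 := next_fst hP (((faceNext σ) ^ (-(n : ℤ) - 1)) d)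
      rw [← Equiv.Perm.mul_apply, ← zpow_one_add] at h3
      have h4 : (1 : ℤ) + (-(n : ℤ) - 1) = -(n : ℤ) := by ring
      rw [h4] at h3
      rw [hg _ h1, ← h3, ih d hd]
  rw [← hn, key n d hd]

theorem finite_dart [Finite V] : Finite G.Dart :=
  Finite.of_injective (fun d : G.Dart => d.toProd) SimpleGraph.Dart.toProd_injective

theorem acyclic [Finite V] (hG : G.Connected) (hP : PlaneMap G σ) (hU : UpDown G h s t)
    {d₀ : G.Dart} (hs : s ∈ onFace σ d₀) (ht : t ∈ onFace σ d₀) (f : Fc σ) :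
    ¬ Relation.TransGen (Lf σ h (phi σ d₀)) f f := by
  intro hf
  classical
  have := Fintype.ofFinite V
  have : Finite G.Dart := finite_dart
  have := Fintype.ofFinite G.Dart
  have : Finite (Fc σ) := Quotient.finite _
  have := Fintype.ofFinite (Fc σ)
  have : Nonempty G.Dart := ⟨d₀⟩
  obtain ⟨c, hc1, ⟨d1, hd1⟩, hc3, hc4⟩ := chain_of_lf hf
  obtain ⟨g, hg⟩ := exact_plane hG hP hU c (fun q => by rw [hc4, sub_self])
  have hmono : ∀ u v, G.Adj u v → h u < h v → g u ≤ g v := by
    intro u v huv hl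
    have h1 := hg ⟨⟨(u, v), huv⟩, hl⟩
    have h2 := hc1 ⟨⟨(u, v), huv⟩, hl⟩
    simp only at h1
    linarith
  have hf0 : ∀ d : G.Dart, phi σ d = phi σ d₀ → g d.fst = g d.snd := by
    intro d hd
    rcases up_or hU d with h1 | h1
    · have h2 := hg ⟨d, h1⟩
      have h3 : c ⟨d, h1⟩ = 0 := by
        by_contra hne
        exact (hc3 _ hne).1 hd
      simp only at h2
      linarith
    · have h2 := hg ⟨d.symm, h1⟩
      have h3 : c ⟨d.symm, h1⟩ = 0 := by
        by_contra hne
        exact (hc3 _ hne).2 (by simpa using hd)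
      have h4 : d.symm.snd = d.fst := rfl
      have h5 : d.symm.fst = d.snd := rfl
      simp only [h4, h5] at h2
      linarith
  obtain ⟨ds, hds, hds'⟩ := hs
  obtain ⟨dt, hdt, hdt'⟩ := ht
  have hst : g s = g t := by
    rw [← hds', ← hdt']
    exact const_face hP g hf0 (phi_eq.2 hds).symm (phi_eq.2 hdt).symm
  have h1 : ∀ v, g s ≤ g v := ind_low hU le_rfl
    (fun v u hvu hl ih => ih.trans (hmono _ _ hvu.symm hl))
  have h2 : ∀ v, g v ≤ g t := ind_high hU le_rfl
    (fun v u hvu hl ih => (hmono _ _ hvu hl).trans ih)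
  have h3 := hg d1
  have h4 := h1 d1.1.fst
  have h5 := h2 d1.1.snd
  linarith [h2 d1.1.fst, h1 d1.1.snd]

/-- the topological order of the faces -/
theorem exists_idx [Finite V] (hG : G.Connected) (hP : PlaneMap G σ) (hU : UpDown G h s t)
    {d₀ : G.Dart} (hs : s ∈ onFace σ d₀) (ht : t ∈ onFace σ d₀) :
    ∃ idx : Fc σ → ℕ, (∀ f, 1 ≤ idx f) ∧ (∀ f, idx f ≤ Nat.card V ^ 2) ∧
      ∀ d, Up h d → phi σ d.symm ≠ phi σ d₀ → phi σ d ≠ phi σ d₀ →
        idx (phi σ d.symm) < idx (phi σ d) := by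
  classical
  have : Finite G.Dart := finite_dart
  have hfin : Finite (Fc σ) := Quotient.finite _
  set R := Lf σ h (phi σ d₀) with hR
  refine ⟨fun f => Nat.card {p : Fc σ // Relation.ReflTransGen R p f}, fun f => ?_, fun f => ?_,
    fun d hd h1 h2 => ?_⟩
  · have : Nonempty {p : Fc σ // Relation.ReflTransGen R p f} := ⟨⟨f, Relation.ReflTransGen.refl⟩⟩
    exact Nat.card_pos
  · have h1 : Nat.card {p : Fc σ // Relation.ReflTransGen R p f} ≤ Nat.card (Fc σ) :=
      Finite.card_subtype_le _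
    have h2 : Nat.card (Fc σ) ≤ Nat.card G.Dart :=
      Nat.card_le_card_of_surjective (fun d => phi σ d) Quotient.mk_surjective
    have h3 : Nat.card G.Dart ≤ Nat.card (V × V) :=
      Nat.card_le_card_of_injective (fun d => d.toProd) SimpleGraph.Dart.toProd_injective
    rw [Nat.card_prod, ← sq] at h3
    exact h1.trans (h2.trans h3)
  · have hlf : R (phi σ d.symm) (phi σ d) := ⟨h1, h2, d, hd, rfl, rfl⟩
    have h3 : {p : Fc σ | Relation.ReflTransGen R p (phi σ d.symm)} ⊂
        {p : Fc σ | Relation.ReflTransGen R p (phi σ d)} := by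
      refine ⟨fun p hp => Relation.ReflTransGen.tail hp hlf, fun hsub => ?_⟩
      have h4 : Relation.ReflTransGen R (phi σ d) (phi σ d.symm) :=
        hsub (show Relation.ReflTransGen R (phi σ d) (phi σ d) from Relation.ReflTransGen.refl)
      exact acyclic hG hP hU hs ht _ (Relation.TransGen.head' hlf h4)
    have h5 := Set.ncard_lt_ncard h3 (Set.toFinite _)
    exact h5

end Vale.Agent.P235.R2.H271
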