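/-
P235-M, reduction, row C (helper271): there is always a sweepable face (RowC23), from `H¹ = 0`.
-/
import Vale.Agent.P235.R2.H271.CC
import Vale.Agent.P235.R2.H934.CDefs

namespace Vale.Agent.P235.R2.H271

open Red

/-- the sweep of a plane map with `s`, `t` on one face never gets stuck -/
theorem rowC23 : RowC23 := by
  intro V _ G σ d₀ h s t C W hW hg
  have hfd : Finite G.Dart := finite_dart
  have hff : Finite (H271.Fc σ) := Quotient.finite _
  have i1 : IsTrans (H271.Fc σ) (Relation.TransGen (Lf σ h (phi σ d₀))) :=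
    ⟨fun _ _ _ h1 h2 => h1.trans h2⟩
  have i2 : Std.Irrefl (Relation.TransGen (Lf σ h (phi σ d₀))) :=
    ⟨fun f => acyclic C.conn C.map C.ud C.hs C.ht f⟩
  have hwf : WellFounded (Relation.TransGen (Lf σ h (phi σ d₀))) :=
    Finite.wellFounded_of_trans_of_irrefl _
  obtain ⟨g, hg1, hg2⟩ := hg
  obtain ⟨f, ⟨hf1, hf2⟩, hmin⟩ := hwf.has_min {f : H271.Fc σ | f ≠ phi σ d₀ ∧ f ∉ W} ⟨g, hg1, hg2⟩
  refine ⟨f, hf1, hf2, fun d hd hdf => ?_⟩
  by_contra hcon
  push Not at hcon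
  exact hmin (phi σ d.symm) ⟨hcon.2, hcon.1⟩
    (Relation.TransGen.single ⟨hcon.2, hf1, d, hd, rfl, hdf⟩)

end Vale.Agent.P235.R2.H271
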