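/-
P235-M, reduction, row C (helper271): a plane map with `s`, `t` on one face has a sweep.
-/
import Vale.Agent.P235.R2.H271.C23
import Vale.Agent.P235.R2.H934.C24
import Vale.Agent.P235.R2.H90.C3

namespace Vale.Agent.P235.R2.H271

open Red

theorem rowC : RowC := rowC_of H90.rowC21 H90.rowC21' rowC23

end Vale.Agent.P235.R2.H271
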